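import Vale.Agent.P254.ConeSimplex

namespace Vale.Agent.Results.P254.PyramidReduction

open Vale.Agent.P254 Set

lemma pyramid_eq_cone0 {n : ℕ} {K : Set (Fin n → ℝ)} (hK : IsConvexBody K) :
    pyramid K = cone0 K := by
  have hne : K.Nonempty := hK.2.2.mono interior_subset
  have := cone0_convexHull K hne
  rw [hK.2.1.convexHull_eq] at this
  rw [this]
  rfl

lemma isoConst_pow {n : ℕ} (hn : 1 ≤ n) {K : Set (Fin n → ℝ)} (hK : IsCompact K) :
    isoConst K ^ (2 * n) = isoQ K := by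
  have hn' : (0 : ℝ) < n := by exact_mod_cast hn
  rw [isoConst_eq, ← Real.rpow_natCast, ← Real.rpow_mul (isoQ_nonneg hK)]
  have : 1 / (2 * (n : ℝ)) * ((2 * n : ℕ) : ℝ) = 1 := by
    push_cast; field_simp
  rw [this, Real.rpow_one]

lemma isoConst_le_iff {n : ℕ} (hn : 1 ≤ n) {K S : Set (Fin n → ℝ)} (hK : IsCompact K)
    (hS : IsCompact S) : isoConst K ≤ isoConst S ↔ isoQ K ≤ isoQ S := by
  have hn' : (0 : ℝ) < n := by exact_mod_cast hn
  rw [isoConst_eq, isoConst_eq]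
  exact Real.rpow_le_rpow_iff (isoQ_nonneg hK) (isoQ_nonneg hS) (by positivity)

lemma isoConst_eq_iff {n : ℕ} (hn : 1 ≤ n) {K S : Set (Fin n → ℝ)} (hK : IsCompact K)
    (hS : IsCompact S) : isoConst K = isoConst S ↔ isoQ K = isoQ S := by
  rw [le_antisymm_iff, le_antisymm_iff, isoConst_le_iff hn hK hS, isoConst_le_iff hn hS hK]

/-- **Pyramid identity and dimension reduction for the strong isotropic constant conjecture.**
(1) For every convex body `K ⊆ ℝⁿ`, the pyramid over `K` satisfies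
`L_{pyr K}^{2(n+1)} = (n+1)^{n+3} / ((n+2)^2 (n+3)^{n+1}) * L_K^{2n}`.
(2) Hence the conjecture (with its equality case) in dimension `n+1` implies it in dimension `n`. -/
theorem result :
    (∀ n : ℕ, 1 ≤ n → ∀ K : Set (Fin n → ℝ), IsConvexBody K →
      IsConvexBody (pyramid K) ∧
      isoConst (pyramid K) ^ (2 * (n + 1))
        = ((n : ℝ) + 1) ^ (n + 3) / (((n : ℝ) + 2) ^ 2 * ((n : ℝ) + 3) ^ (n + 1))
          * isoConst K ^ (2 * n)) ∧
    (∀ n : ℕ, 1 ≤ n → StrongConj (n + 1) → StrongConj n) := by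
  refine ⟨?_, ?_⟩
  · intro n hn K hK
    rw [pyramid_eq_cone0 hK]
    refine ⟨hK.cone0, ?_⟩
    rw [isoConst_pow (Nat.succ_pos n) (isCompact_cone0 hK.1), isoConst_pow hn hK.1,
      isoQ_cone0 hK.1 hK.vol_pos.ne']
  · intro n hn H K hK S hS
    have hSb := hS.isConvexBody
    obtain ⟨h1, h2⟩ := H (cone0 K) hK.cone0 (cone0 S) hS.cone0
    have hκ : (0 : ℝ) < ((n : ℝ) + 1) ^ (n + 3) / (((n : ℝ) + 2) ^ 2 * ((n : ℝ) + 3) ^ (n + 1)) := by
      positivity
    rw [isoConst_le_iff (Nat.succ_pos n) (isCompact_cone0 hK.1) (isCompact_cone0 hSb.1),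
      isoQ_cone0 hK.1 hK.vol_pos.ne', isoQ_cone0 hSb.1 hSb.vol_pos.ne',
      mul_le_mul_iff_right₀ hκ] at h1
    rw [isoConst_eq_iff (Nat.succ_pos n) (isCompact_cone0 hK.1) (isCompact_cone0 hSb.1),
      isoQ_cone0 hK.1 hK.vol_pos.ne', isoQ_cone0 hSb.1 hSb.vol_pos.ne',
      mul_right_inj' hκ.ne'] at h2
    refine ⟨(isoConst_le_iff hn hK.1 hSb.1).mpr h1, fun heq => ?_⟩
    exact isSimplex_of_cone0 hK (h2 ((isoConst_eq_iff hn hK.1 hSb.1).mp heq))

end Vale.Agent.Results.P254.PyramidReduction
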