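import Vale.Agent.P254.LM.Hausdorff
import Vale.Agent.P254.IsoPow
import Vale.Agent.Results.P254.PyramidReduction

namespace Vale.Agent.Results.P254.Combined

open Vale.Agent.P254 Set

/-- **Four results on the strong isotropic constant conjecture, in every dimension `n ≥ 1`.**
(1) Simplices are strict local maximisers of `L_K` in the Hausdorff metric.
(2) Explicit affine invariant neighbourhood: `K ⊆ S`, `|K| ≥ (1 - (n+3)^(-5n)) |S|`.
(3) The conjecture with its equality case for convex hulls of `n + 2` points.
(4) The conjecture in dimension `n + 1` implies the conjecture in dimension `n`. -/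
theorem result (n : ℕ) (hn : 1 ≤ n) :
    (∀ S : Set (Fin n → ℝ), IsSimplex S →
      ∃ η : ℝ, 0 < η ∧ ∀ K : Set (Fin n → ℝ), IsConvexBody K → Metric.hausdorffDist K S < η →
        isoConst K ≤ isoConst S ∧ (isoConst K = isoConst S → IsSimplex K)) ∧
    (∀ K S : Set (Fin n → ℝ), IsConvexBody K → IsSimplex S → K ⊆ S →
      (1 - 1 / ((n : ℝ) + 3) ^ (5 * n)) * vol S ≤ vol K →
        isoConst K ≤ isoConst S ∧ (isoConst K = isoConst S → IsSimplex K)) ∧
    (∀ v : Fin (n + 2) → (Fin n → ℝ), (interior (convexHull ℝ (range v))).Nonempty →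
      ∀ S : Set (Fin n → ℝ), IsSimplex S →
        isoConst (convexHull ℝ (range v)) ≤ isoConst S ∧
          (isoConst (convexHull ℝ (range v)) = isoConst S →
            IsSimplex (convexHull ℝ (range v)))) ∧
    (StrongConj (n + 1) → StrongConj n) :=
  ⟨fun S hS => local_max_hausdorff n hn S hS,
   fun K S hK hS hKS hvol => local_max_explicit n hn K S hK hS hKS hvol,
   fun v hint S hS => by
     obtain ⟨u, z, hu, hr⟩ := exists_simplex_insert v hint
     rw [hr]
     exact strong_insert hn hu z hS,
   Vale.Agent.Results.P254.PyramidReduction.result.2 n hn⟩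

end Vale.Agent.Results.P254.Combined
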