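import Vale.Agent.P254.LM.Hausdorff

namespace Vale.Agent.Results.P254.LocalMaxHausdorff

open Vale.Agent.P254 Set

/-- **Simplices are strict local maximisers of the isotropic constant.**
(1) Hausdorff form: every simplex `S ⊆ ℝⁿ` has a Hausdorff neighbourhood in which every convex
body `K` satisfies `L_K ≤ L_S`, with equality only for simplices.
(2) Explicit affine invariant form: the same conclusion holds as soon as `K` is contained in a
simplex `S` and fills it up to the fraction `(n+3)^(-5n)` of its volume. -/
theorem result (n : ℕ) (hn : 1 ≤ n) :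
    (∀ S : Set (Fin n → ℝ), IsSimplex S →
      ∃ η : ℝ, 0 < η ∧ ∀ K : Set (Fin n → ℝ), IsConvexBody K → Metric.hausdorffDist K S < η →
        isoConst K ≤ isoConst S ∧ (isoConst K = isoConst S → IsSimplex K)) ∧
    (∀ K S : Set (Fin n → ℝ), IsConvexBody K → IsSimplex S → K ⊆ S →
      (1 - 1 / ((n : ℝ) + 3) ^ (5 * n)) * vol S ≤ vol K →
        isoConst K ≤ isoConst S ∧ (isoConst K = isoConst S → IsSimplex K)) :=
  ⟨fun S hS => local_max_hausdorff n hn S hS,
   fun K S hK hS hKS hvol => local_max_explicit n hn K S hK hS hKS hvol⟩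

end Vale.Agent.Results.P254.LocalMaxHausdorff
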