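import Vale.Agent.P254.LM.HausdorffExplicit
import Vale.Agent.P254.IsoPow

namespace Vale.Agent.Results.P254.LocalMaxMathlib

open MeasureTheory Set

/-- **Simplices are strict local maximisers of the isotropic constant: explicit neighbourhoods,
stated in Mathlib terms only.**  `b`, `Sg`, `L` are the centroid, the covariance matrix and the
isotropic constant of the problem, pinned down by their defining formulas.  Let
`S = conv (range v)` be any `n`-simplex.  Then `L_S ^ (2n) = (n!)^2 / ((n+1)^(n+1) (n+2)^n)`,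
`S` contains a ball, and every convex body `K` which
(a) has Hausdorff distance less than `ρ / (2 n (n+3)^(5n))` from `S`, where `S` contains a closed
ball of radius `ρ > 0`, or
(b) lies in some simplex and fills it up to the fraction `(n+3)^(-5n)` of its volume, or
(c) is the convex hull of `n + 2` points,
satisfies `L_K ≤ L_S`, with equality if and only if `K` is a simplex. -/
theorem result (n : ℕ) (hn : 1 ≤ n)
    (b : Set (Fin n → ℝ) → Fin n → ℝ)
    (hb : ∀ (K : Set (Fin n → ℝ)) (i : Fin n), b K i = (volume K).toReal⁻¹ * ∫ x in K, x i)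
    (Sg : Set (Fin n → ℝ) → Matrix (Fin n) (Fin n) ℝ)
    (hSg : ∀ (K : Set (Fin n → ℝ)) (i j : Fin n),
      Sg K i j = (volume K).toReal⁻¹ * ∫ x in K, (x i - b K i) * (x j - b K j))
    (L : Set (Fin n → ℝ) → ℝ)
    (hL : ∀ K : Set (Fin n → ℝ),
      L K = ((Sg K).det / (volume K).toReal ^ 2) ^ (1 / (2 * (n : ℝ))))
    (v : Fin (n + 1) → Fin n → ℝ) (hv : AffineIndependent ℝ v) :
    L (convexHull ℝ (range v)) ^ (2 * n)
      = (n.factorial : ℝ) ^ 2 / (((n : ℝ) + 1) ^ (n + 1) * ((n : ℝ) + 2) ^ n) ∧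
    (∃ (c : Fin n → ℝ) (ρ : ℝ), 0 < ρ ∧ Metric.closedBall c ρ ⊆ convexHull ℝ (range v)) ∧
    ∀ K : Set (Fin n → ℝ), IsCompact K → Convex ℝ K → (interior K).Nonempty →
      ((∃ (c : Fin n → ℝ) (ρ : ℝ), 0 < ρ ∧ Metric.closedBall c ρ ⊆ convexHull ℝ (range v) ∧
          Metric.hausdorffDist K (convexHull ℝ (range v))
            < ρ / (2 * (n : ℝ) * ((n : ℝ) + 3) ^ (5 * n))) ∨
        (∃ u : Fin (n + 1) → Fin n → ℝ, AffineIndependent ℝ u ∧ K ⊆ convexHull ℝ (range u) ∧
          (1 - 1 / ((n : ℝ) + 3) ^ (5 * n)) * (volume (convexHull ℝ (range u))).toReal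
            ≤ (volume K).toReal) ∨
        (∃ w : Fin (n + 2) → Fin n → ℝ, K = convexHull ℝ (range w))) →
      L K ≤ L (convexHull ℝ (range v)) ∧
        (L K = L (convexHull ℝ (range v)) ↔
          ∃ u : Fin (n + 1) → Fin n → ℝ, AffineIndependent ℝ u ∧ K = convexHull ℝ (range u)) := by
  have hLeq : ∀ K : Set (Fin n → ℝ), L K = Vale.Agent.P254.isoConst K := by
    intro K
    have hS : Sg K = Vale.Agent.P254.covMat K := by
      ext i j
      rw [hSg, hb, hb]
      rfl
    rw [hL, hS]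
    rfl
  have hS : Vale.Agent.P254.IsSimplex (convexHull ℝ (range v)) := ⟨v, hv, rfl⟩
  refine ⟨?_, ?_, ?_⟩
  · rw [hLeq, Vale.Agent.P254.isoConst_pow hn hS.isConvexBody.1, Vale.Agent.P254.isoQ_simplex hS]
    rfl
  · obtain ⟨c, hc⟩ := hS.isConvexBody.2.2
    obtain ⟨ρ, hρ, hball⟩ :=
      Metric.nhds_basis_closedBall.mem_iff.mp (mem_interior_iff_mem_nhds.mp hc)
    exact ⟨c, ρ, hρ, hball⟩
  · intro K hK1 hK2 hK3 hcase
    have hK : Vale.Agent.P254.IsConvexBody K := ⟨hK1, hK2, hK3⟩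
    rw [hLeq, hLeq]
    have key : Vale.Agent.P254.isoConst K ≤ Vale.Agent.P254.isoConst (convexHull ℝ (range v)) ∧
        (Vale.Agent.P254.isoConst K = Vale.Agent.P254.isoConst (convexHull ℝ (range v)) →
          Vale.Agent.P254.IsSimplex K) := by
      rcases hcase with ⟨c, ρ, hρ, hball, h⟩ | ⟨u, hu, hKu, hvol⟩ | ⟨w, rfl⟩
      · exact Vale.Agent.P254.local_max_hausdorff_explicit n hn _ hS c ρ hρ hball K hK h
      · have hT : Vale.Agent.P254.IsSimplex (convexHull ℝ (range u)) := ⟨u, hu, rfl⟩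
        have := Vale.Agent.P254.local_max_explicit n hn K _ hK hT hKu hvol
        rwa [Vale.Agent.P254.isoConst_simplex_eq hT hS] at this
      · obtain ⟨u, z, hu, hr⟩ := Vale.Agent.P254.exists_simplex_insert w hK3
        rw [hr]
        exact Vale.Agent.P254.strong_insert hn hu z hS
    refine ⟨key.1, fun h => key.2 h, fun h => ?_⟩
    exact Vale.Agent.P254.isoConst_simplex_eq h hS

end Vale.Agent.Results.P254.LocalMaxMathlib
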