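import Vale.Agent.P254.LM.Explicit

namespace Vale.Agent.Results.P254.LocalMaximum

open Vale.Agent.P254 Set

/-- **Simplices are strict local maximisers of the isotropic constant.**
If a convex body `K ⊆ ℝⁿ` is contained in a simplex `S` and fills it up to the fraction
`(n+3)^(-5n)` of its volume, then `L_K ≤ L_S`, and equality forces `K` to be a simplex. -/
theorem result (n : ℕ) (hn : 1 ≤ n) (K S : Set (Fin n → ℝ)) (hK : IsConvexBody K)
    (hS : IsSimplex S) (hKS : K ⊆ S)
    (hvol : (1 - 1 / ((n : ℝ) + 3) ^ (5 * n)) * vol S ≤ vol K) :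
    isoConst K ≤ isoConst S ∧ (isoConst K = isoConst S → IsSimplex K) :=
  local_max_explicit n hn K S hK hS hKS hvol

end Vale.Agent.Results.P254.LocalMaximum
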